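import Mathlib
import Crest.Agent.Helper7.TreeDefs
import Crest.Agent.Helper27.Reflexive

/-!
Row 125 / S0166, module BLOCKISO (helper4).

The `n`-th block `Block n = space (ExtraH n)` of the reflexive example is linearly homeomorphic
to the Hilbert space `ℓ²` over the vertices of length at most `n`; hence it is reflexive.

The map is `J c = (f ↦ ∑' s, c s * f s)`. Upper bound `‖J c‖ ≤ ‖c‖` is Cauchy-Schwarz (a test has
square sum at most `1`); the lower bound `‖c‖ / √(n+1) ≤ ‖J c‖` comes from the test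
`c / (√(n+1) ‖c‖)` whose potentials are at most `1` because a root path meets at most `n+1`
vertices of length at most `n`.
-/

set_option autoImplicit false

open scoped ENNReal RealInnerProductSpace

namespace Crest.Agent.Helper4

open Crest.Agent.Helper7.Tree Crest.AnalysisR.TreePotential

/-- Vertices of length at most `n`. -/
abbrev Idx (n : ℕ) : Type := {s : List ℕ // s.length ≤ n}

/-- The Hilbert space `ℓ²` over the vertices of length at most `n`. -/
abbrev L2 (n : ℕ) : Type := lp (fun _ : Idx n => ℝ) 2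

/-! ### Potentials as sums over suffixes -/

theorem pathPotential_eq_sum (g : List ℕ → ℝ) (s : List ℕ) :
    pathPotential g s = ∑ u ∈ s.tails.toFinset, g u := by
  induction s with
  | nil => simp [pathPotential]
  | cons a v ih =>
    have hnot : (a :: v) ∉ v.tails.toFinset := by
      intro h
      rw [List.mem_toFinset, List.mem_tails] at h
      have := h.length_le
      simp at this
    rw [pathPotential, ih, List.tails_cons, List.toFinset_cons, Finset.sum_insert hnot]
    ring

theorem card_tails_le (s : List ℕ) : s.tails.toFinset.card ≤ s.length + 1 := by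
  calc s.tails.toFinset.card ≤ s.tails.length := List.toFinset_card_le _
    _ = s.length + 1 := List.length_tails s

/-- A family that vanishes above length `n` and whose finite square sums are at most
`1 / (n + 1)` has all potentials bounded by `1`. -/
theorem abs_pathPotential_le_one (n : ℕ) (g : List ℕ → ℝ)
    (hsq : ∀ A : Finset (List ℕ), ∑ u ∈ A, g u ^ 2 ≤ 1 / ((n : ℝ) + 1))
    (hz : ∀ s : List ℕ, n < s.length → g s = 0) (s : List ℕ) :
    abs (pathPotential g s) ≤ 1 := by
  have hn : (0 : ℝ) < (n : ℝ) + 1 := by positivity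
  have short : ∀ t : List ℕ, t.length ≤ n → abs (pathPotential g t) ≤ 1 := by
    intro t ht
    rw [← sq_le_one_iff_abs_le_one, pathPotential_eq_sum]
    have h1 := sq_sum_le_card_mul_sum_sq (s := t.tails.toFinset) (f := g)
    have h2 : ((t.tails.toFinset.card : ℕ) : ℝ) ≤ (n : ℝ) + 1 := by
      have := card_tails_le t
      have h3 : (t.tails.toFinset.card : ℝ) ≤ ((t.length + 1 : ℕ) : ℝ) := by exact_mod_cast this
      have h4 : ((t.length + 1 : ℕ) : ℝ) ≤ (n : ℝ) + 1 := by
        push_cast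
        have : (t.length : ℝ) ≤ n := by exact_mod_cast ht
        linarith
      linarith
    have h5 := hsq t.tails.toFinset
    have h6 : 0 ≤ ∑ u ∈ t.tails.toFinset, g u ^ 2 := Finset.sum_nonneg fun _ _ => sq_nonneg _
    calc (∑ u ∈ t.tails.toFinset, g u) ^ 2
        ≤ (t.tails.toFinset.card : ℝ) * ∑ u ∈ t.tails.toFinset, g u ^ 2 := h1
      _ ≤ ((n : ℝ) + 1) * ∑ u ∈ t.tails.toFinset, g u ^ 2 :=
          mul_le_mul_of_nonneg_right h2 h6
      _ ≤ ((n : ℝ) + 1) * (1 / ((n : ℝ) + 1)) := mul_le_mul_of_nonneg_left h5 hn.le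
      _ = 1 := by field_simp
  induction s with
  | nil => exact short [] (by simp)
  | cons a v ih =>
    by_cases h : (a :: v).length ≤ n
    · exact short _ h
    · have h0 : g (a :: v) = 0 := hz _ (by omega)
      rw [pathPotential, h0, add_zero]
      exact ih

/-! ### Tests as vectors of `ℓ²` -/

theorem sum_sq_idx_le (n : ℕ) (f : Test (ExtraH n)) (A : Finset (Idx n)) :
    ∑ s ∈ A, f.1 s.1 ^ 2 ≤ 1 := by
  have h := f.2.2.1 (A.map ⟨Subtype.val, Subtype.val_injective⟩)
  rwa [Finset.sum_map] at h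

theorem memℓp_test (n : ℕ) (f : Test (ExtraH n)) :
    Memℓp (fun s : Idx n => f.1 s.1) 2 := by
  apply memℓp_gen' (C := 1)
  intro A
  have h := sum_sq_idx_le n f A
  simpa [Real.norm_eq_abs, sq_abs] using h

/-- A test, restricted to the vertices of length at most `n`, as a vector of `ℓ²`. -/
noncomputable def tvec (n : ℕ) (f : Test (ExtraH n)) : L2 n :=
  ⟨fun s => f.1 s.1, memℓp_test n f⟩

@[simp] theorem tvec_apply (n : ℕ) (f : Test (ExtraH n)) (s : Idx n) :
    (tvec n f : ∀ _ : Idx n, ℝ) s = f.1 s.1 := rfl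

theorem norm_tvec_le (n : ℕ) (f : Test (ExtraH n)) : ‖tvec n f‖ ≤ 1 := by
  have hp : 0 < (2 : ℝ≥0∞).toReal := by norm_num
  apply lp.norm_le_of_forall_sum_le hp zero_le_one
  intro A
  have h := sum_sq_idx_le n f A
  simpa [Real.norm_eq_abs, sq_abs] using h

/-! ### The map `J` -/

/-- `J c`, as a bounded function on the tests: `f ↦ ⟪c, f⟫`. -/
noncomputable def Jfun (n : ℕ) (c : L2 n) : lp (fun _ : Test (ExtraH n) => ℝ) ⊤ :=
  ⟨fun f => ⟪c, tvec n f⟫, memℓp_infty ⟨‖c‖, by
    rintro _ ⟨f, rfl⟩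
    show abs ⟪c, tvec n f⟫ ≤ ‖c‖
    calc abs ⟪c, tvec n f⟫ ≤ ‖c‖ * ‖tvec n f‖ := abs_real_inner_le_norm _ _
      _ ≤ ‖c‖ * 1 := mul_le_mul_of_nonneg_left (norm_tvec_le n f) (norm_nonneg _)
      _ = ‖c‖ := mul_one _⟩⟩

@[simp] theorem Jfun_apply (n : ℕ) (c : L2 n) (f : Test (ExtraH n)) :
    (Jfun n c : ∀ _ : Test (ExtraH n), ℝ) f = ⟪c, tvec n f⟫ := rfl

theorem norm_Jfun_le (n : ℕ) (c : L2 n) : ‖Jfun n c‖ ≤ ‖c‖ := by
  apply lp.norm_le_of_forall_le (norm_nonneg _)
  intro f
  rw [Jfun_apply, Real.norm_eq_abs]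
  calc abs ⟪c, tvec n f⟫ ≤ ‖c‖ * ‖tvec n f‖ := abs_real_inner_le_norm _ _
    _ ≤ ‖c‖ * 1 := mul_le_mul_of_nonneg_left (norm_tvec_le n f) (norm_nonneg _)
    _ = ‖c‖ := mul_one _

/-- `J` as a continuous linear map into the ambient space of bounded functions on the tests. -/
noncomputable def J (n : ℕ) : L2 n →L[ℝ] lp (fun _ : Test (ExtraH n) => ℝ) ⊤ :=
  LinearMap.mkContinuous
    { toFun := Jfun n
      map_add' := by
        intro a b
        ext f
        simp [inner_add_left]
      map_smul' := by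
        intro r a
        ext f
        simp [inner_smul_left] } 1 (by
    intro c
    rw [one_mul]
    exact norm_Jfun_le n c)

@[simp] theorem J_apply (n : ℕ) (c : L2 n) (f : Test (ExtraH n)) :
    (J n c : ∀ _ : Test (ExtraH n), ℝ) f = ⟪c, tvec n f⟫ := rfl

/-- `J` maps the unit vector of the vertex `s` to its coordinate vector. -/
theorem J_single (n : ℕ) (s : Idx n) :
    J n (lp.single 2 s (1 : ℝ)) = coordVec (ExtraH n) s.1 := by
  ext f
  rw [J_apply, lp.inner_single_left, coordVec_apply]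
  simp

/-- Coordinate vectors of vertices longer than `n` vanish. -/
theorem coordVec_eq_zero (n : ℕ) (s : List ℕ) (hs : n < s.length) :
    coordVec (ExtraH n) s = 0 := by
  ext f
  rw [coordVec_apply]
  simpa using f.2.2.2 s hs

/-! ### The lower bound -/

/-- The normalised test attached to a nonzero vector `c`. -/
noncomputable def normTest (n : ℕ) (c : L2 n) : List ℕ → ℝ := fun s =>
  if h : s.length ≤ n then c ⟨s, h⟩ / (Real.sqrt ((n : ℝ) + 1) * ‖c‖) else 0

theorem normTest_idx (n : ℕ) (c : L2 n) (s : Idx n) :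
    normTest n c s.1 = c s / (Real.sqrt ((n : ℝ) + 1) * ‖c‖) := by
  unfold normTest
  rw [dif_pos s.2]

theorem sum_sq_le_norm_sq (n : ℕ) (c : L2 n) (A : Finset (Idx n)) :
    ∑ s ∈ A, c s ^ 2 ≤ ‖c‖ ^ 2 := by
  have hp : 0 < (2 : ℝ≥0∞).toReal := by norm_num
  have h := lp.sum_rpow_le_norm_rpow hp c A
  simpa [Real.norm_eq_abs, sq_abs] using h

theorem normTest_sq_sum (n : ℕ) (c : L2 n) (hc : c ≠ 0) (A : Finset (List ℕ)) :
    ∑ u ∈ A, normTest n c u ^ 2 ≤ 1 / ((n : ℝ) + 1) := by
  classical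
  have hn : (0 : ℝ) < (n : ℝ) + 1 := by positivity
  have hcn : 0 < ‖c‖ := norm_pos_iff.mpr hc
  have hs : 0 < Real.sqrt ((n : ℝ) + 1) := Real.sqrt_pos.mpr hn
  -- restrict to the vertices of length at most `n`
  have h1 : ∑ u ∈ A, normTest n c u ^ 2 =
      ∑ u ∈ A.filter (fun u => u.length ≤ n), normTest n c u ^ 2 := by
    rw [Finset.sum_filter]
    refine Finset.sum_congr rfl fun u _ => ?_
    by_cases h : u.length ≤ n
    · rw [if_pos h]
    · rw [if_neg h]
      unfold normTest
      rw [dif_neg h]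
      simp
  have h2 : ∑ u ∈ A.filter (fun u => u.length ≤ n), normTest n c u ^ 2 =
      ∑ s ∈ (A.filter (fun u => u.length ≤ n)).subtype (fun u => u.length ≤ n),
        normTest n c s.1 ^ 2 := by
    rw [Finset.sum_subtype_of_mem (f := fun u => normTest n c u ^ 2)]
    intro u hu
    exact (Finset.mem_filter.mp hu).2
  rw [h1, h2]
  set B := (A.filter (fun u => u.length ≤ n)).subtype (fun u => u.length ≤ n) with hB
  have h3 : ∑ s ∈ B, normTest n c s.1 ^ 2 =
      (∑ s ∈ B, c s ^ 2) / ((n + 1) * ‖c‖ ^ 2) := by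
    rw [Finset.sum_div]
    refine Finset.sum_congr rfl fun s _ => ?_
    rw [normTest_idx, div_pow, mul_pow, Real.sq_sqrt hn.le]
  rw [h3]
  have h4 := sum_sq_le_norm_sq n c B
  rw [div_le_div_iff₀ (by positivity) hn]
  nlinarith [sq_nonneg ‖c‖]

theorem normTest_isT (n : ℕ) (c : L2 n) (hc : c ≠ 0) : IsT (ExtraH n) (normTest n c) := by
  have hn : (0 : ℝ) < (n : ℝ) + 1 := by positivity
  have hz : ∀ s : List ℕ, n < s.length → normTest n c s = 0 := by
    intro s hs
    unfold normTest
    rw [dif_neg (by omega)]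
  refine ⟨abs_pathPotential_le_one n _ (normTest_sq_sum n c hc) hz, ?_, hz⟩
  intro A
  refine (normTest_sq_sum n c hc A).trans ?_
  rw [div_le_one hn]
  have : (0 : ℝ) ≤ n := Nat.cast_nonneg n
  linarith

/-- The lower bound `‖c‖ ≤ √(n+1) ‖J c‖`. -/
theorem norm_le_J (n : ℕ) (c : L2 n) : ‖c‖ ≤ Real.sqrt ((n : ℝ) + 1) * ‖J n c‖ := by
  have hn : (0 : ℝ) < (n : ℝ) + 1 := by positivity
  have hs : 0 < Real.sqrt ((n : ℝ) + 1) := Real.sqrt_pos.mpr hn
  by_cases hc : c = 0
  · subst hc
    simp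
  have hcn : 0 < ‖c‖ := norm_pos_iff.mpr hc
  let f : Test (ExtraH n) := ⟨normTest n c, normTest_isT n c hc⟩
  have hf : tvec n f = (Real.sqrt ((n : ℝ) + 1) * ‖c‖)⁻¹ • c := by
    ext s
    rw [tvec_apply, lp.coeFn_smul, Pi.smul_apply, smul_eq_mul]
    show normTest n c s.1 = _
    rw [normTest_idx, div_eq_inv_mul]
  have hval : (J n c : ∀ _ : Test (ExtraH n), ℝ) f = ‖c‖ / Real.sqrt ((n : ℝ) + 1) := by
    rw [J_apply, hf, real_inner_smul_right, real_inner_self_eq_norm_sq]
    field_simp
  have hle : abs ((J n c : ∀ _ : Test (ExtraH n), ℝ) f) ≤ ‖J n c‖ := by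
    have := lp.norm_apply_le_norm ENNReal.top_ne_zero (J n c) f
    rwa [Real.norm_eq_abs] at this
  rw [hval, abs_of_pos (div_pos hcn hs), div_le_iff₀ hs] at hle
  linarith

/-! ### Range of `J` -/

theorem J_mem_space (n : ℕ) (c : L2 n) : J n c ∈ space (ExtraH n) := by
  classical
  have : Fact ((1 : ℝ≥0∞) ≤ 2) := ⟨by norm_num⟩
  have hsum := lp.hasSum_single (E := fun _ : Idx n => ℝ) (p := 2) (by norm_num) c
  have hJ := hsum.mapL (J n)
  -- each partial sum lies in the span
  have hmem : ∀ A : Finset (Idx n),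
      ∑ s ∈ A, J n (lp.single 2 s (c s)) ∈ Submodule.span ℝ (Set.range (coordVec (ExtraH n))) := by
    intro A
    refine Submodule.sum_mem _ fun s _ => ?_
    have h1 : (lp.single 2 s (c s) : L2 n) = c s • (lp.single 2 s (1 : ℝ) : L2 n) := by
      rw [← lp.single_smul]
      simp
    rw [h1, map_smul, J_single]
    exact Submodule.smul_mem _ _ (Submodule.subset_span ⟨s.1, rfl⟩)
  have hcl : J n c ∈ closure
      ((Submodule.span ℝ (Set.range (coordVec (ExtraH n))) : Set (lp (fun _ : Test (ExtraH n) => ℝ) ⊤))) :=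
    mem_closure_of_tendsto hJ (Filter.Eventually.of_forall hmem)
  exact hcl

/-- `J` with codomain the block. -/
noncomputable def JB (n : ℕ) : L2 n →L[ℝ] Block n :=
  (J n).codRestrict (space (ExtraH n)) (J_mem_space n)

@[simp] theorem JB_coe (n : ℕ) (c : L2 n) :
    ((JB n c : Block n) : lp (fun _ : Test (ExtraH n) => ℝ) ⊤) = J n c := rfl

theorem norm_le_JB (n : ℕ) (c : L2 n) : ‖c‖ ≤ Real.sqrt ((n : ℝ) + 1) * ‖JB n c‖ :=
  norm_le_J n c

theorem JB_injective (n : ℕ) : Function.Injective (JB n) := by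
  intro a b hab
  have h := norm_le_JB n (a - b)
  rw [map_sub, hab, sub_self, norm_zero, mul_zero] at h
  exact sub_eq_zero.mp (norm_le_zero_iff.mp h)

theorem isClosed_range_J (n : ℕ) : IsClosed (Set.range (J n)) := by
  have hanti : AntilipschitzWith ⟨Real.sqrt ((n : ℝ) + 1), Real.sqrt_nonneg _⟩ (J n) :=
    AddMonoidHomClass.antilipschitz_of_bound (J n) fun c => norm_le_J n c
  exact hanti.isClosed_range (J n).uniformContinuous

theorem JB_surjective (n : ℕ) : Function.Surjective (JB n) := by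
  intro y
  have hspan : (Submodule.span ℝ (Set.range (coordVec (ExtraH n))) :
      Set (lp (fun _ : Test (ExtraH n) => ℝ) ⊤)) ⊆ Set.range (J n) := by
    have : Submodule.span ℝ (Set.range (coordVec (ExtraH n))) ≤ LinearMap.range (J n).toLinearMap := by
      rw [Submodule.span_le]
      rintro _ ⟨s, rfl⟩
      by_cases hs : s.length ≤ n
      · exact ⟨lp.single 2 ⟨s, hs⟩ (1 : ℝ), J_single n ⟨s, hs⟩⟩
      · rw [coordVec_eq_zero n s (by omega)]
        exact Submodule.zero_mem _
    intro x hx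
    exact this hx
  have hy : (y : lp (fun _ : Test (ExtraH n) => ℝ) ⊤) ∈ Set.range (J n) := by
    have h1 : (y : lp (fun _ : Test (ExtraH n) => ℝ) ⊤) ∈ closure
        ((Submodule.span ℝ (Set.range (coordVec (ExtraH n))) :
          Set (lp (fun _ : Test (ExtraH n) => ℝ) ⊤))) := y.2
    exact (isClosed_range_J n).closure_subset_iff.mpr hspan h1
  obtain ⟨c, hc⟩ := hy
  exact ⟨c, Subtype.ext hc⟩

/-- The block is linearly homeomorphic to `ℓ²`. -/
noncomputable def blockEquiv (n : ℕ) : L2 n ≃L[ℝ] Block n :=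
  ContinuousLinearEquiv.ofBijective (JB n)
    (LinearMap.ker_eq_bot.mpr (JB_injective n))
    (LinearMap.range_eq_top.mpr (JB_surjective n))

/-- **S0166-BLOCKISO.** Every block is reflexive. -/
theorem block_reflexive (n : ℕ) :
    Function.Surjective (NormedSpace.inclusionInDoubleDual ℝ (Block n)) :=
  Crest.Agent.Helper27.Reflexive.of_equiv (blockEquiv n).symm
    Crest.Agent.Helper27.reflexive_of_hilbert

end Crest.Agent.Helper4
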